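/-
S0175 team project (coordinator helper32) — package CG (contact geometry), helper52.
Statements are `Crest.Agent.Helper32.Spec` (GeomSpec, section CG) verbatim.
-/
import Crest.Agent.Helper32.GeomDefs
import Crest.Agent.Helper31.Riesz.Contact

set_option autoImplicit false
set_option linter.unusedSectionVars false
set_option linter.unusedVariables false
open MeasureTheory Set
open scoped ENNReal
open Crest.AnalysisR.OT
open Crest.Agent.Helper32
open Crest.Agent.Helper31.Riesz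

namespace Crest.Agent.Helper52

/-! ### auxiliary facts -/

lemma cg_shP_pos {w : ℝ} (hw' : 2 * w ^ 2 < 1) : 0 < shP w := by unfold shP; linarith

lemma cg_shL12_pos (s : ℝ) {w : ℝ} (hw' : 2 * w ^ 2 < 1) : 0 < shL12 s w :=
  Real.rpow_pos_of_pos (cg_shP_pos hw') _

lemma cg_shL23_pos (s : ℝ) {w : ℝ} (hw : 0 < w) : 0 < shL23 s w := Real.rpow_pos_of_pos hw _

/-- the in-plane part of a base vertex in the model-free form of helper31 -/
lemma cg_mul_betaC (s w σ : ℝ) (hw : 0 < w) (a : ℂ) :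
    a * betaC s w σ ‖a‖ = baseP (shP w / w ^ 2) (σ * shL23 s w) a := by
  unfold baseP betaC
  congr 1
  apply Complex.ext
  · simp only
    field_simp
  · simp only

lemma cg_kappa_ne {w : ℝ} (hw : 0 < w) (hw' : 2 * w ^ 2 < 1) : shP w / w ^ 2 ≠ -2 := by
  have hP := cg_shP_pos hw'
  have : 0 < shP w / w ^ 2 := by positivity
  linarith

lemma cg_one_add_kappa {w : ℝ} (hw : 0 < w) : 1 + shP w / w ^ 2 / 2 = 1 / (2 * w ^ 2) := by
  unfold shP; field_simp; ring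

lemma cg_one_add_shC (w : ℝ) : 1 + shC w = 2 / (2 * w ^ 2 + 1) := by
  have : (2 * w ^ 2 + 1) ≠ 0 := by positivity
  unfold shC shP; field_simp; ring

lemma cg_dM_sq {k : ℕ} (p q : MS k) : dM p q ^ 2 = ‖p.1 - q.1‖ ^ 2 + ‖p.2 - q.2‖ ^ 2 := by
  unfold dM
  rw [Real.sq_sqrt (by positivity)]

lemma cg_dM_nonneg {k : ℕ} (p q : MS k) : 0 ≤ dM p q := Real.sqrt_nonneg _

lemma cg_dM_eq_of_sq {k : ℕ} (p q : MS k) {L : ℝ} (hL : 0 ≤ L)
    (h : ‖p.1 - q.1‖ ^ 2 + ‖p.2 - q.2‖ ^ 2 = L ^ 2) : dM p q = L := by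
  unfold dM
  rw [h, Real.sqrt_sq hL]

lemma cg_snd_sub {k : ℕ} (w : ℝ) (v : EuclideanSpace ℝ (Fin k)) :
    ‖v - -(shC w) • v‖ ^ 2 = 4 * ‖v‖ ^ 2 / (2 * w ^ 2 + 1) ^ 2 := by
  have h : v - -(shC w) • v = (1 + shC w) • v := by
    rw [add_smul, one_smul, neg_smul, sub_neg_eq_add]
  rw [h, norm_smul, mul_pow, Real.norm_eq_abs, sq_abs, cg_one_add_shC]
  have : (2 * w ^ 2 + 1) ≠ 0 := by positivity
  field_simp
  ring

/-- squared distance apex – base vertex -/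
lemma cg_dist_apex {k : ℕ} (s w σ : ℝ) (hσ : σ ^ 2 = 1) (hw : 0 < w) (x : MS k) (hx : x.1 ≠ 0) :
    ‖x.1 - (bvert s w σ x).1‖ ^ 2 + ‖x.2 - (bvert s w σ x).2‖ ^ 2 =
      ‖x.1‖ ^ 2 / (4 * w ^ 4) + 4 * ‖x.2‖ ^ 2 / (2 * w ^ 2 + 1) ^ 2 + (shL23 s w) ^ 2 / 4 := by
  have h1 : (bvert s w σ x).1 = baseP (shP w / w ^ 2) (σ * shL23 s w) x.1 := cg_mul_betaC s w σ hw x.1
  have h2 : (bvert s w σ x).2 = -(shC w) • x.2 := rfl
  rw [h1, h2, norm_sub_baseP_sq _ _ hx, cg_snd_sub, cg_one_add_kappa hw]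
  have : (σ * shL23 s w) ^ 2 = (shL23 s w) ^ 2 := by rw [mul_pow, hσ, one_mul]
  rw [this]
  field_simp
  ring

section CG
variable {k : ℕ} (s : ℝ) (hs : 0 < s)
include hs

/-- the triangle with apex `x` and shape `w` (root of the apex equation) has the right shape -/
theorem contact_geom (w : ℝ) (hw : 0 < w) (hw' : 2 * w ^ 2 < 1) (x : MS k) (hx : x.1 ≠ 0)
    (hroot : shF s w (‖x.1‖ ^ 2) (‖x.2‖ ^ 2) = 0) (hH : 0 ≤ shH s w) :
    dM x (bvert s w 1 x) = shL12 s w ∧ dM x (bvert s w (-1) x) = shL12 s w ∧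
      dM (bvert s w 1 x) (bvert s w (-1) x) = shL23 s w ∧
      ((shP w / w : ℝ) : ℂ) * x.1 + (w : ℂ) * ((bvert s w 1 x).1 + (bvert s w (-1) x).1) = 0 := by
  have hL12 := cg_shL12_pos s hw'
  have hL23 := cg_shL23_pos s hw
  have hroot' : ‖x.1‖ ^ 2 / (4 * w ^ 4) + 4 * ‖x.2‖ ^ 2 / (2 * w ^ 2 + 1) ^ 2
      + (shL23 s w) ^ 2 / 4 = (shL12 s w) ^ 2 := by
    unfold shF shH at hroot
    linarith
  refine ⟨?_, ?_, ?_, ?_⟩
  · apply cg_dM_eq_of_sq _ _ hL12.le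
    rw [cg_dist_apex s w 1 (by norm_num) hw x hx, hroot']
  · apply cg_dM_eq_of_sq _ _ hL12.le
    rw [cg_dist_apex s w (-1) (by norm_num) hw x hx, hroot']
  · apply cg_dM_eq_of_sq _ _ hL23.le
    have h1 : (bvert s w 1 x).1 = baseP (shP w / w ^ 2) (shL23 s w) x.1 := by
      have := cg_mul_betaC s w 1 hw x.1
      rw [one_mul] at this
      exact this
    have h2 : (bvert s w (-1) x).1 = baseP (shP w / w ^ 2) (-(shL23 s w)) x.1 := by
      have := cg_mul_betaC s w (-1) hw x.1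
      rw [neg_one_mul] at this
      exact this
    have h3 : (bvert s w 1 x).2 - (bvert s w (-1) x).2 = 0 := by
      show -(shC w) • x.2 - -(shC w) • x.2 = 0
      exact sub_self _
    rw [h1, h2, h3, norm_baseP_sub_baseP_sq _ _ hx]
    simp
  · have h1 : (bvert s w 1 x).1 = baseP (shP w / w ^ 2) (shL23 s w) x.1 := by
      have := cg_mul_betaC s w 1 hw x.1
      rw [one_mul] at this
      exact this
    have h2 : (bvert s w (-1) x).1 = baseP (shP w / w ^ 2) (-(shL23 s w)) x.1 := by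
      have := cg_mul_betaC s w (-1) hw x.1
      rw [neg_one_mul] at this
      exact this
    rw [h1, h2, baseP_add]
    rw [Complex.real_smul]
    push_cast
    have hwc : (w : ℂ) ≠ 0 := by exact_mod_cast hw.ne'
    field_simp
    ring

/-- rigidity: the equality conditions determine the base vertices up to order -/
theorem rigid (w : ℝ) (hw : 0 < w) (hw' : 2 * w ^ 2 < 1) (x y z : MS k) (hx : x.1 ≠ 0)
    (h12 : dM x y = dM x z) (h23 : dM y z = shL23 s w)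
    (h4 : ((shP w / w : ℝ) : ℂ) * x.1 + (w : ℂ) * (y.1 + z.1) = 0)
    (h5 : y.2 = -(shC w) • x.2) (h6 : z.2 = -(shC w) • x.2) :
    (y = bvert s w 1 x ∧ z = bvert s w (-1) x) ∨ (y = bvert s w (-1) x ∧ z = bvert s w 1 x) := by
  have hwc : (w : ℂ) ≠ 0 := by exact_mod_cast hw.ne'
  have hsum : y.1 + z.1 = -(shP w / w ^ 2) • x.1 := by
    rw [Complex.real_smul]
    push_cast
    have h4' : (w : ℂ) * (y.1 + z.1) = -(((shP w : ℝ) : ℂ) / (w : ℂ) * x.1) := by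
      have := h4
      push_cast at this
      linear_combination this
    apply mul_left_cancel₀ hwc
    rw [h4']
    field_simp
  have hd : ‖x.1 - y.1‖ ^ 2 = ‖x.1 - z.1‖ ^ 2 := by
    have h := congrArg (fun t => t ^ 2) h12
    simp only [cg_dM_sq] at h
    rw [h5, h6] at h
    linarith
  have hbc : ‖y.1 - z.1‖ ^ 2 = (shL23 s w) ^ 2 := by
    have h := congrArg (fun t => t ^ 2) h23
    simp only [cg_dM_sq] at h
    rw [h5, h6, sub_self, norm_zero] at h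
    linarith
  have h1 : (bvert s w 1 x).1 = baseP (shP w / w ^ 2) (shL23 s w) x.1 := by
    have := cg_mul_betaC s w 1 hw x.1
    rw [one_mul] at this
    exact this
  have h2 : (bvert s w (-1) x).1 = baseP (shP w / w ^ 2) (-(shL23 s w)) x.1 := by
    have := cg_mul_betaC s w (-1) hw x.1
    rw [neg_one_mul] at this
    exact this
  rcases plane_contact hx (cg_kappa_ne hw hw') hsum hd hbc with ⟨hy, hz⟩ | ⟨hy, hz⟩
  · left
    exact ⟨Prod.ext (hy.trans h1.symm) h5, Prod.ext (hz.trans h2.symm) h6⟩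
  · right
    exact ⟨Prod.ext (hy.trans h2.symm) h5, Prod.ext (hz.trans h1.symm) h6⟩

/-- `‖y.1‖² + 4‖y.2‖² = shb s w` for a base vertex `y` -/
theorem tau_bvert (w : ℝ) (hw : 0 < w) (hw' : 2 * w ^ 2 < 1) (x : MS k) (hx : x.1 ≠ 0)
    (hroot : shF s w (‖x.1‖ ^ 2) (‖x.2‖ ^ 2) = 0) (σ : ℝ) (hσ : σ = 1 ∨ σ = -1) :
    ‖(bvert s w σ x).1‖ ^ 2 + 4 * ‖(bvert s w σ x).2‖ ^ 2 = shb s w := by
  have hσ2 : σ ^ 2 = 1 := by rcases hσ with h | h <;> rw [h] <;> norm_num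
  have hr : 0 < ‖x.1‖ := norm_pos_iff.mpr hx
  have h1 : ‖(bvert s w σ x).1‖ ^ 2 =
      ‖x.1‖ ^ 2 * ((shP w / (2 * w ^ 2)) ^ 2 + (σ * shL23 s w / (2 * ‖x.1‖)) ^ 2) := by
    show ‖x.1 * betaC s w σ ‖x.1‖‖ ^ 2 = _
    rw [norm_mul, mul_pow, Complex.sq_norm (betaC s w σ ‖x.1‖), Complex.normSq_apply]
    simp only [betaC]
    ring
  have h2 : ‖(bvert s w σ x).2‖ ^ 2 = (shC w) ^ 2 * ‖x.2‖ ^ 2 := by
    show ‖-(shC w) • x.2‖ ^ 2 = _
    rw [norm_smul, mul_pow, Real.norm_eq_abs, abs_neg, sq_abs]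
  have hroot' : ‖x.1‖ ^ 2 / (4 * w ^ 4) + 4 * ‖x.2‖ ^ 2 / (2 * w ^ 2 + 1) ^ 2 = shH s w := by
    unfold shF at hroot
    linarith
  rw [h1, h2]
  unfold shb
  rw [← hroot']
  have h3 : (2 * w ^ 2 + 1) ≠ 0 := by positivity
  unfold shC
  field_simp
  linear_combination (4 * w ^ 4 * (2 * w ^ 2 + 1) ^ 2 * (shL23 s w) ^ 2) * hσ2

/-- the second base vertex is the first base vertex of the rotated apex -/
theorem bvert_neg (w : ℝ) (hw : 0 < w) (hw' : 2 * w ^ 2 < 1) (x : MS k) (hx : x.1 ≠ 0) :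
    ‖betaC s w (-1) ‖x.1‖ / betaC s w 1 ‖x.1‖‖ = 1 ∧
    bvert s w (-1) x = bvert s w 1 (betaC s w (-1) ‖x.1‖ / betaC s w 1 ‖x.1‖ * x.1, x.2) := by
  have hP := cg_shP_pos hw'
  have hne : betaC s w 1 ‖x.1‖ ≠ 0 := by
    intro h
    have := congrArg Complex.re h
    simp only [betaC, Complex.zero_re] at this
    have h2 : 0 < shP w / (2 * w ^ 2) := by positivity
    linarith
  have hnorm : ‖betaC s w (-1) ‖x.1‖‖ = ‖betaC s w 1 ‖x.1‖‖ := by
    have h : ‖betaC s w (-1) ‖x.1‖‖ ^ 2 = ‖betaC s w 1 ‖x.1‖‖ ^ 2 := by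
      rw [Complex.sq_norm, Complex.sq_norm, Complex.normSq_apply, Complex.normSq_apply]
      simp only [betaC]
      ring
    exact (sq_eq_sq₀ (norm_nonneg _) (norm_nonneg _)).mp h
  have h1 : ‖betaC s w (-1) ‖x.1‖ / betaC s w 1 ‖x.1‖‖ = 1 := by
    rw [norm_div, hnorm, div_self (norm_ne_zero_iff.mpr hne)]
  refine ⟨h1, ?_⟩
  have hn : ‖betaC s w (-1) ‖x.1‖ / betaC s w 1 ‖x.1‖ * x.1‖ = ‖x.1‖ := by
    rw [norm_mul, h1, one_mul]
  unfold bvert
  simp only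
  rw [hn]
  refine Prod.ext ?_ rfl
  simp only
  field_simp

omit hs in
/-- rotation equivariance -/
theorem rot_equivariant (w2 : ℝ) (t : ℝ) (x : MS k) :
    wA s w2 (rotM t x) = wA s w2 x ∧ bplus s w2 (rotM t x) = rotM t (bplus s w2 x) ∧
      omegaG s w2 (rotM t x) = omegaG s w2 x := by
  have hn : ‖(rotM t x).1‖ = ‖x.1‖ := by
    show ‖Complex.exp (2 * (Real.pi : ℂ) * (t : ℂ) * Complex.I) * x.1‖ = ‖x.1‖
    have : (2 * (Real.pi : ℂ) * (t : ℂ) * Complex.I) = ((2 * Real.pi * t : ℝ) : ℂ) * Complex.I := by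
      push_cast; ring
    rw [norm_mul, this, Complex.norm_exp_ofReal_mul_I, one_mul]
  have h2 : (rotM t x).2 = x.2 := rfl
  have hw : wA s w2 (rotM t x) = wA s w2 x := by
    unfold wA
    rw [hn, h2]
  refine ⟨hw, ?_, ?_⟩
  · unfold bplus
    rw [hw]
    unfold bvert
    rw [hn]
    refine Prod.ext ?_ rfl
    show Complex.exp (2 * (Real.pi : ℂ) * (t : ℂ) * Complex.I) * x.1 * betaC s (wA s w2 x) 1 ‖x.1‖
      = Complex.exp (2 * (Real.pi : ℂ) * (t : ℂ) * Complex.I) * (x.1 * betaC s (wA s w2 x) 1 ‖x.1‖)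
    ring
  · unfold omegaG
    rw [hw, hn]

end CG

end Crest.Agent.Helper52
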